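import Mathlib
import Crest.Prelude.Def_QuadricHamiltonian

/-!
Algebra for the Hamiltonian on the quadric threefold with three fixed points.
-/

set_option autoImplicit false

open scoped ContDiff Topology
open Crest.GeometryTopology.Quadric

noncomputable section

namespace Crest.Agent.Quadric

abbrev E := Fin 5 → ℂ

/-- Plücker coordinate -/
def pl (z : E) (j k : Fin 5) : ℝ := (z j).re * (z k).im - (z j).im * (z k).re

/-- derivative of the Plücker coordinate -/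
def dpl (z w : E) (j k : Fin 5) : ℝ :=
  (w j).re * (z k).im + (z j).re * (w k).im - ((w j).im * (z k).re + (z j).im * (w k).re)

def U1 (z : E) : ℝ := 2 * (pl z 0 1 + pl z 2 3)
def U2 (z : E) : ℝ := 2 * (pl z 0 2 - pl z 1 3)
def U3 (z : E) : ℝ := 2 * (pl z 0 3 + pl z 1 2)
def V1 (z : E) : ℝ := 2 * (pl z 0 1 - pl z 2 3)
def V2 (z : E) : ℝ := 2 * (pl z 0 2 + pl z 1 3)
def V3 (z : E) : ℝ := 2 * (pl z 0 3 - pl z 1 2)

def dU1 (z w : E) : ℝ := 2 * (dpl z w 0 1 + dpl z w 2 3)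
def dU2 (z w : E) : ℝ := 2 * (dpl z w 0 2 - dpl z w 1 3)
def dU3 (z w : E) : ℝ := 2 * (dpl z w 0 3 + dpl z w 1 2)
def dV1 (z w : E) : ℝ := 2 * (dpl z w 0 1 - dpl z w 2 3)
def dV2 (z w : E) : ℝ := 2 * (dpl z w 0 2 + dpl z w 1 3)
def dV3 (z w : E) : ℝ := 2 * (dpl z w 0 3 - dpl z w 1 2)

/-- the Hamiltonian -/
def Fh (z : E) : ℝ := U2 z * (1 - V1 z) + V2 z * (1 - U1 z) + U3 z * V3 z

def dFh (z w : E) : ℝ :=
  dU2 z w * (1 - V1 z) - U2 z * dV1 z w + (dV2 z w * (1 - U1 z) - V2 z * dU1 z w)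
    + (dU3 z w * V3 z + U3 z * dV3 z w)

/-- the infinitesimal `so(4)` action -/
def skew (a1 a2 a3 b1 b2 b3 : ℝ) (z : E) : E :=
  ![-((a1 + b1 : ℝ) : ℂ) * z 1 - ((a2 + b2 : ℝ) : ℂ) * z 2 - ((a3 + b3 : ℝ) : ℂ) * z 3,
    ((a1 + b1 : ℝ) : ℂ) * z 0 + ((a2 - b2 : ℝ) : ℂ) * z 3 + ((b3 - a3 : ℝ) : ℂ) * z 2,
    ((b1 - a1 : ℝ) : ℂ) * z 3 + ((a2 + b2 : ℝ) : ℂ) * z 0 + ((a3 - b3 : ℝ) : ℂ) * z 1,
    ((a1 - b1 : ℝ) : ℂ) * z 2 + ((b2 - a2 : ℝ) : ℂ) * z 1 + ((a3 + b3 : ℝ) : ℂ) * z 0,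
    0]

/-- the Hamiltonian vector field -/
def Xv (z : E) : E := skew (-V2 z) (1 - V1 z) (V3 z) (-U2 z) (1 - U1 z) (U3 z) z

/-- the rotation -/
def G (θ : ℝ) (z : E) : E :=
  ![(Real.cos θ : ℂ) * z 0 - (Real.sin θ : ℂ) * z 1,
    (Real.cos θ : ℂ) * z 1 + (Real.sin θ : ℂ) * z 0,
    (Real.cos θ : ℂ) * z 2 - (Real.sin θ : ℂ) * z 3,
    (Real.cos θ : ℂ) * z 3 + (Real.sin θ : ℂ) * z 2,
    z 4]

/-- generator of the rotation -/
def A1 (z : E) : E := ![-z 1, z 0, -z 3, z 2, 0]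

theorem herm_eq (u w : E) : herm u w = starRingEnd ℂ (u 0) * w 0 + starRingEnd ℂ (u 1) * w 1 +
    starRingEnd ℂ (u 2) * w 2 + starRingEnd ℂ (u 3) * w 3 + starRingEnd ℂ (u 4) * w 4 := by
  simp [herm, Fin.sum_univ_five]

theorem ham_skew (a1 a2 a3 b1 b2 b3 : ℝ) (z w : E) :
    2 * (herm (skew a1 a2 a3 b1 b2 b3 z) w).im =
      a1 * dU1 z w + a2 * dU2 z w + a3 * dU3 z w + b1 * dV1 z w + b2 * dV2 z w + b3 * dV3 z w := by
  simp [herm_eq, skew, dU1, dU2, dU3, dV1, dV2, dV3, dpl]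
  ring

theorem ham_Xv (z w : E) : 2 * (herm (Xv z) w).im = dFh z w := by
  rw [Xv, ham_skew, dFh]; ring

theorem ham_A1 (z w : E) : 2 * (herm (A1 z) w).im = dU1 z w := by
  simp [herm_eq, A1, dU1, dpl]
  ring

theorem herm_G (θ : ℝ) (u w : E) : herm (G θ u) w = herm u (G (-θ) w) := by
  simp only [herm_eq, G, Real.cos_neg, Real.sin_neg]
  simp [-Complex.ofReal_cos, -Complex.ofReal_sin]
  ring

theorem G_G (θ : ℝ) (z : E) : G (-θ) (G θ z) = z := by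
  have h : (Real.cos θ : ℂ) ^ 2 + (Real.sin θ : ℂ) ^ 2 = 1 := by
    exact_mod_cast Real.cos_sq_add_sin_sq θ
  funext j
  fin_cases j <;> simp [G, -Complex.ofReal_cos, -Complex.ofReal_sin]
  · linear_combination (z 0) * h
  · linear_combination (z 1) * h
  · linear_combination (z 2) * h
  · linear_combination (z 3) * h

theorem G_zero (z : E) : G 0 z = z := by
  funext j
  fin_cases j <;> simp [G]

theorem G_pi (z : E) : G Real.pi z = ![-z 0, -z 1, -z 2, -z 3, z 4] := by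
  funext j
  fin_cases j <;> simp [G]

theorem G_smul (θ : ℝ) (c : ℂ) (z : E) : G θ (c • z) = c • G θ z := by
  funext j
  fin_cases j <;> simp [G, -Complex.ofReal_cos, -Complex.ofReal_sin] <;> ring

theorem G_add (θ : ℝ) (z w : E) : G θ (z + w) = G θ z + G θ w := by
  funext j
  fin_cases j <;> simp [G, -Complex.ofReal_cos, -Complex.ofReal_sin] <;> ring

theorem G_rsmul (θ : ℝ) (c : ℝ) (z : E) : G θ (c • z) = c • G θ z := by
  funext j
  fin_cases j <;> simp [G, -Complex.ofReal_cos, -Complex.ofReal_sin] <;> ring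

theorem G_mem (θ : ℝ) {z : E} (hz : z ∈ unitCone) : G θ z ∈ unitCone := by
  have h : (Real.cos θ : ℂ) ^ 2 + (Real.sin θ : ℂ) ^ 2 = 1 := by
    exact_mod_cast Real.cos_sq_add_sin_sq θ
  obtain ⟨h1, h2⟩ := hz
  refine ⟨?_, ?_⟩
  · rw [herm_G, G_G, h1]
  · simp only [Fin.sum_univ_five] at h2 ⊢
    simp [G, -Complex.ofReal_cos, -Complex.ofReal_sin]
    linear_combination h2 + (z 0 ^ 2 + z 1 ^ 2 + z 2 ^ 2 + z 3 ^ 2) * h

theorem pl_smul {c : ℂ} (hc : ‖c‖ = 1) (z : E) (j k : Fin 5) : pl (c • z) j k = pl z j k := by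
  have h : c.re ^ 2 + c.im ^ 2 = 1 := by
    have := Complex.sq_norm c
    rw [hc, Complex.normSq_apply] at this
    nlinarith
  simp [pl]
  linear_combination ((z j).re * (z k).im - (z j).im * (z k).re) * h

theorem skew_smul (a1 a2 a3 b1 b2 b3 : ℝ) (c : ℂ) (z : E) :
    skew a1 a2 a3 b1 b2 b3 (c • z) = c • skew a1 a2 a3 b1 b2 b3 z := by
  funext j
  fin_cases j <;> simp [skew] <;> ring

theorem Xv_smul {c : ℂ} (hc : ‖c‖ = 1) (z : E) : Xv (c • z) = c • Xv z := by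
  simp only [Xv, U1, U2, U3, V1, V2, V3, pl_smul hc, skew_smul]

theorem Fh_smul {c : ℂ} (hc : ‖c‖ = 1) (z : E) : Fh (c • z) = Fh z := by
  simp only [Fh, U1, U2, U3, V1, V2, V3, pl_smul hc]

theorem U1_smul {c : ℂ} (hc : ‖c‖ = 1) (z : E) : U1 (c • z) = U1 z := by
  simp only [U1, pl_smul hc]

theorem herm_smul (c d : ℂ) (u w : E) : herm (c • u) (d • w) = starRingEnd ℂ c * d * herm u w := by
  simp [herm_eq]; ring

theorem smul_mem {c : ℂ} (hc : ‖c‖ = 1) {z : E} (hz : z ∈ unitCone) : c • z ∈ unitCone := by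
  obtain ⟨h1, h2⟩ := hz
  refine ⟨?_, ?_⟩
  · rw [herm_smul, h1, Complex.conj_mul', hc]; simp
  · simp only [Pi.smul_apply, smul_eq_mul, mul_pow, ← Finset.mul_sum, h2, mul_zero]

theorem norm_eq_one_of_smul_mem {c : ℂ} {z : E} (hz : z ∈ unitCone) (hcz : c • z ∈ unitCone) :
    ‖c‖ = 1 := by
  have h := hcz.1
  rw [herm_smul, hz.1, Complex.conj_mul', mul_one] at h
  have h' : ‖c‖ ^ 2 = 1 := by exact_mod_cast h
  have := norm_nonneg c
  nlinarith

theorem cone_norm {z : E} (hz : z ∈ unitCone) :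
    ‖z 0‖ ^ 2 + ‖z 1‖ ^ 2 + ‖z 2‖ ^ 2 + ‖z 3‖ ^ 2 + ‖z 4‖ ^ 2 = 1 := by
  have h := hz.1
  simp only [herm_eq, Complex.conj_mul'] at h
  exact_mod_cast h

theorem norm_le_one {z : E} (hz : z ∈ unitCone) : ‖z‖ ≤ 1 := by
  have h := cone_norm hz
  rw [pi_norm_le_iff_of_nonneg zero_le_one]
  intro j
  have h0 := sq_nonneg ‖z 0‖
  have h1 := sq_nonneg ‖z 1‖
  have h2 := sq_nonneg ‖z 2‖
  have h3 := sq_nonneg ‖z 3‖
  have h4 := sq_nonneg ‖z 4‖
  have : ‖z j‖ ^ 2 ≤ 1 := by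
    fin_cases j <;> simp only [Fin.zero_eta, Fin.mk_one, Fin.reduceFinMk] <;> linarith
  nlinarith [norm_nonneg (z j)]

/-! ### smoothness -/

theorem contDiff_pl (j k : Fin 5) : ContDiff ℝ ∞ fun z : E => pl z j k := by
  have hre : ∀ j, ContDiff ℝ ∞ fun z : E => (z j).re := fun j =>
    Complex.reCLM.contDiff.comp (contDiff_apply ℝ ℂ j)
  have him : ∀ j, ContDiff ℝ ∞ fun z : E => (z j).im := fun j =>
    Complex.imCLM.contDiff.comp (contDiff_apply ℝ ℂ j)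
  exact ((hre j).mul (him k)).sub ((him j).mul (hre k))

@[fun_prop] theorem contDiff_U1 : ContDiff ℝ ∞ U1 :=
  contDiff_const.mul ((contDiff_pl _ _).add (contDiff_pl _ _))
@[fun_prop] theorem contDiff_U2 : ContDiff ℝ ∞ U2 :=
  contDiff_const.mul ((contDiff_pl _ _).sub (contDiff_pl _ _))
@[fun_prop] theorem contDiff_U3 : ContDiff ℝ ∞ U3 :=
  contDiff_const.mul ((contDiff_pl _ _).add (contDiff_pl _ _))
@[fun_prop] theorem contDiff_V1 : ContDiff ℝ ∞ V1 :=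
  contDiff_const.mul ((contDiff_pl _ _).sub (contDiff_pl _ _))
@[fun_prop] theorem contDiff_V2 : ContDiff ℝ ∞ V2 :=
  contDiff_const.mul ((contDiff_pl _ _).add (contDiff_pl _ _))
@[fun_prop] theorem contDiff_V3 : ContDiff ℝ ∞ V3 :=
  contDiff_const.mul ((contDiff_pl _ _).sub (contDiff_pl _ _))

theorem contDiff_Fh : ContDiff ℝ ∞ Fh := by
  unfold Fh
  fun_prop

theorem contDiff_Xv : ContDiff ℝ ∞ Xv := by
  have hc : ∀ f : E → ℝ, ContDiff ℝ ∞ f → ContDiff ℝ ∞ fun z => (f z : ℂ) := fun f hf =>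
    Complex.ofRealCLM.contDiff.comp hf
  have ha : ∀ j, ContDiff ℝ ∞ fun z : E => z j := fun j => contDiff_apply ℝ ℂ j
  rw [contDiff_pi]
  intro j
  fin_cases j <;> simp only [Xv, skew] <;> simp only [Fin.zero_eta, Fin.mk_one, Fin.reduceFinMk,
    Matrix.cons_val, Matrix.cons_val_zero, Matrix.cons_val_one]
  · exact ((((hc _ (by fun_prop)).neg.mul (ha _)).sub ((hc _ (by fun_prop)).mul (ha _))).sub
      ((hc _ (by fun_prop)).mul (ha _)))
  · exact ((((hc _ (by fun_prop)).mul (ha _)).add ((hc _ (by fun_prop)).mul (ha _))).add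
      ((hc _ (by fun_prop)).mul (ha _)))
  · exact ((((hc _ (by fun_prop)).mul (ha _)).add ((hc _ (by fun_prop)).mul (ha _))).add
      ((hc _ (by fun_prop)).mul (ha _)))
  · exact ((((hc _ (by fun_prop)).mul (ha _)).add ((hc _ (by fun_prop)).mul (ha _))).add
      ((hc _ (by fun_prop)).mul (ha _)))
  · exact contDiff_const

theorem contDiff_G : ContDiff ℝ ∞ fun p : ℝ × E => G p.1 p.2 := by
  have hc : ContDiff ℝ ∞ fun p : ℝ × E => (Real.cos p.1 : ℂ) :=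
    Complex.ofRealCLM.contDiff.comp (Real.contDiff_cos.comp contDiff_fst)
  have hs : ContDiff ℝ ∞ fun p : ℝ × E => (Real.sin p.1 : ℂ) :=
    Complex.ofRealCLM.contDiff.comp (Real.contDiff_sin.comp contDiff_fst)
  have ha : ∀ j, ContDiff ℝ ∞ fun p : ℝ × E => p.2 j := fun j =>
    (contDiff_apply ℝ ℂ j).comp contDiff_snd
  rw [contDiff_pi]
  intro j
  fin_cases j <;> simp only [G] <;> simp only [Fin.zero_eta, Fin.mk_one, Fin.reduceFinMk,
    Matrix.cons_val, Matrix.cons_val_zero, Matrix.cons_val_one]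
  · exact (hc.mul (ha _)).sub (hs.mul (ha _))
  · exact (hc.mul (ha _)).add (hs.mul (ha _))
  · exact (hc.mul (ha _)).sub (hs.mul (ha _))
  · exact (hc.mul (ha _)).add (hs.mul (ha _))
  · exact ha _

/-! ### derivatives along curves -/

section curves

variable {γ : ℝ → E} {γ' : E} {t : ℝ}

theorem hasDerivAt_pl (h : HasDerivAt γ γ' t) (j k : Fin 5) :
    HasDerivAt (fun s => pl (γ s) j k) (dpl (γ t) γ' j k) t := by
  have hre : ∀ j, HasDerivAt (fun s => (γ s j).re) (γ' j).re t := fun j =>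
    Complex.reCLM.hasFDerivAt.comp_hasDerivAt t (hasDerivAt_pi.1 h j)
  have him : ∀ j, HasDerivAt (fun s => (γ s j).im) (γ' j).im t := fun j =>
    Complex.imCLM.hasFDerivAt.comp_hasDerivAt t (hasDerivAt_pi.1 h j)
  exact ((hre j).fun_mul (him k)).fun_sub ((him j).fun_mul (hre k))

theorem hasDerivAt_U1 (h : HasDerivAt γ γ' t) :
    HasDerivAt (fun s => U1 (γ s)) (dU1 (γ t) γ') t :=
  ((hasDerivAt_pl h _ _).fun_add (hasDerivAt_pl h _ _)).const_mul 2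
theorem hasDerivAt_U2 (h : HasDerivAt γ γ' t) :
    HasDerivAt (fun s => U2 (γ s)) (dU2 (γ t) γ') t :=
  ((hasDerivAt_pl h _ _).fun_sub (hasDerivAt_pl h _ _)).const_mul 2
theorem hasDerivAt_U3 (h : HasDerivAt γ γ' t) :
    HasDerivAt (fun s => U3 (γ s)) (dU3 (γ t) γ') t :=
  ((hasDerivAt_pl h _ _).fun_add (hasDerivAt_pl h _ _)).const_mul 2
theorem hasDerivAt_V1 (h : HasDerivAt γ γ' t) :
    HasDerivAt (fun s => V1 (γ s)) (dV1 (γ t) γ') t :=
  ((hasDerivAt_pl h _ _).fun_sub (hasDerivAt_pl h _ _)).const_mul 2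
theorem hasDerivAt_V2 (h : HasDerivAt γ γ' t) :
    HasDerivAt (fun s => V2 (γ s)) (dV2 (γ t) γ') t :=
  ((hasDerivAt_pl h _ _).fun_add (hasDerivAt_pl h _ _)).const_mul 2
theorem hasDerivAt_V3 (h : HasDerivAt γ γ' t) :
    HasDerivAt (fun s => V3 (γ s)) (dV3 (γ t) γ') t :=
  ((hasDerivAt_pl h _ _).fun_sub (hasDerivAt_pl h _ _)).const_mul 2

theorem hasDerivAt_Fh (h : HasDerivAt γ γ' t) :
    HasDerivAt (fun s => Fh (γ s)) (dFh (γ t) γ') t := by
  have := (((hasDerivAt_U2 h).fun_mul ((hasDerivAt_V1 h).const_sub 1)).fun_add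
    ((hasDerivAt_V2 h).fun_mul ((hasDerivAt_U1 h).const_sub 1))).fun_add
    ((hasDerivAt_U3 h).fun_mul (hasDerivAt_V3 h))
  refine HasDerivAt.congr_deriv this ?_
  simp only [dFh]; ring

theorem hasDerivAt_G {θ : ℝ → ℝ} {θ' : ℝ} (hθ : HasDerivAt θ θ' t) (h : HasDerivAt γ γ' t) :
    HasDerivAt (fun s => G (θ s) (γ s)) (θ' • A1 (G (θ t) (γ t)) + G (θ t) γ') t := by
  have hc : HasDerivAt (fun s => (Real.cos (θ s) : ℂ)) ((-Real.sin (θ t) * θ' : ℝ) : ℂ) t :=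
    hθ.cos.ofReal_comp
  have hs : HasDerivAt (fun s => (Real.sin (θ s) : ℂ)) ((Real.cos (θ t) * θ' : ℝ) : ℂ) t :=
    hθ.sin.ofReal_comp
  have ha := hasDerivAt_pi.1 h
  rw [hasDerivAt_pi]
  intro j
  fin_cases j <;> simp only [G, A1] <;> simp only [Fin.zero_eta, Fin.mk_one, Fin.reduceFinMk,
    Matrix.cons_val, Matrix.cons_val_zero, Matrix.cons_val_one, Pi.add_apply, Pi.smul_apply,
    Complex.real_smul]
  · convert (hc.fun_mul (ha 0)).fun_sub (hs.fun_mul (ha 1)) using 1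
    push_cast; ring
  · convert (hc.fun_mul (ha 1)).fun_add (hs.fun_mul (ha 0)) using 1
    push_cast; ring
  · convert (hc.fun_mul (ha 2)).fun_sub (hs.fun_mul (ha 3)) using 1
    push_cast; ring
  · convert (hc.fun_mul (ha 3)).fun_add (hs.fun_mul (ha 2)) using 1
    push_cast; ring
  · simpa using ha 4

theorem hasDerivAt_herm (h : HasDerivAt γ γ' t) :
    HasDerivAt (fun s => herm (γ s) (γ s)) (herm γ' (γ t) + herm (γ t) γ') t := by
  have ha := hasDerivAt_pi.1 h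
  have : HasDerivAt (fun s => ∑ j, starRingEnd ℂ (γ s j) * γ s j)
      (∑ j, (starRingEnd ℂ (γ' j) * γ t j + starRingEnd ℂ (γ t j) * γ' j)) t :=
    HasDerivAt.fun_sum fun j _ =>
      (Complex.conjCLE.hasFDerivAt.comp_hasDerivAt t (ha j)).fun_mul (ha j)
  simpa [herm, Finset.sum_add_distrib] using this

theorem hasDerivAt_sq (h : HasDerivAt γ γ' t) :
    HasDerivAt (fun s => ∑ j, γ s j ^ 2) (∑ j, (γ' j * γ t j + γ t j * γ' j)) t := by
  have ha := hasDerivAt_pi.1 h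
  simp only [sq]
  exact HasDerivAt.fun_sum fun j _ => (ha j).fun_mul (ha j)

end curves

theorem herm_Xv (c : ℝ) (z : E) : herm (c • Xv z) z + herm z (c • Xv z) = 0 := by
  simp [herm_eq, Xv, skew]
  ring

theorem sq_Xv (c : ℝ) (z : E) : ∑ j, ((c • Xv z) j * z j + z j * (c • Xv z) j) = 0 := by
  simp [Fin.sum_univ_five, Xv, skew]
  ring

theorem Xv_four (z : E) : Xv z 4 = 0 := by simp [Xv, skew]

theorem Xv_zero : Xv 0 = 0 := by
  funext j
  fin_cases j <;> simp [Xv, skew]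

/-! ### reduced dynamics -/

/-- moment map -/
def qv (z : E) : Fin 6 → ℝ := ![U1 z, U2 z, U3 z, V1 z, V2 z, V3 z]

/-- reduced vector field -/
def Wv (q : Fin 6 → ℝ) : Fin 6 → ℝ :=
  ![2 * ((1 - q 3) * q 2 - q 5 * q 1), 2 * (q 5 * q 0 + q 4 * q 2),
    2 * (-q 4 * q 1 - (1 - q 3) * q 0),
    2 * (q 4 * q 2 - q 5 * (1 - q 0)), 2 * (-q 5 * q 1 - q 3 * q 2),
    2 * (q 3 * (1 - q 0) + q 4 * q 1)]

theorem contDiff_Wv : ContDiff ℝ 1 Wv := by
  rw [contDiff_pi]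
  intro j
  fin_cases j <;> simp only [Wv] <;> simp only [Fin.zero_eta, Fin.mk_one, Fin.reduceFinMk,
    Matrix.cons_val, Matrix.cons_val_zero, Matrix.cons_val_one] <;> fun_prop

theorem continuous_qv : Continuous qv := by
  have h1 := contDiff_U1.continuous
  have h2 := contDiff_U2.continuous
  have h3 := contDiff_U3.continuous
  have h4 := contDiff_V1.continuous
  have h5 := contDiff_V2.continuous
  have h6 := contDiff_V3.continuous
  rw [continuous_pi_iff]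
  intro j
  fin_cases j <;> simp only [qv] <;> simp only [Fin.zero_eta, Fin.mk_one, Fin.reduceFinMk,
    Matrix.cons_val, Matrix.cons_val_zero, Matrix.cons_val_one] <;> assumption

theorem d_skew (c a1 a2 a3 b1 b2 b3 : ℝ) (z : E) :
    dU1 z (c • skew a1 a2 a3 b1 b2 b3 z) = c * (2 * (a2 * U3 z - a3 * U2 z)) ∧
    dU2 z (c • skew a1 a2 a3 b1 b2 b3 z) = c * (2 * (a3 * U1 z - a1 * U3 z)) ∧
    dU3 z (c • skew a1 a2 a3 b1 b2 b3 z) = c * (2 * (a1 * U2 z - a2 * U1 z)) ∧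
    dV1 z (c • skew a1 a2 a3 b1 b2 b3 z) = c * (2 * (V2 z * b3 - V3 z * b2)) ∧
    dV2 z (c • skew a1 a2 a3 b1 b2 b3 z) = c * (2 * (V3 z * b1 - V1 z * b3)) ∧
    dV3 z (c • skew a1 a2 a3 b1 b2 b3 z) = c * (2 * (V1 z * b2 - V2 z * b1)) := by
  refine ⟨?_, ?_, ?_, ?_, ?_, ?_⟩ <;>
    simp [dU1, dU2, dU3, dV1, dV2, dV3, U1, U2, U3, V1, V2, V3, dpl, pl, skew] <;> ring

theorem hasDerivAt_qv {γ : ℝ → E} {t c : ℝ} (h : HasDerivAt γ (c • Xv (γ t)) t) :
    HasDerivAt (fun s => qv (γ s)) (c • Wv (qv (γ t))) t := by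
  obtain ⟨h1, h2, h3, h4, h5, h6⟩ := d_skew c (-V2 (γ t)) (1 - V1 (γ t)) (V3 (γ t)) (-U2 (γ t))
    (1 - U1 (γ t)) (U3 (γ t)) (γ t)
  rw [hasDerivAt_pi]
  intro j
  fin_cases j <;> simp only [qv, Wv] <;> simp only [Fin.zero_eta, Fin.mk_one, Fin.reduceFinMk,
    Matrix.cons_val, Matrix.cons_val_zero, Matrix.cons_val_one, Pi.smul_apply, smul_eq_mul]
  · refine HasDerivAt.congr_deriv (hasDerivAt_U1 h) ?_
    rw [Xv, h1]
  · refine HasDerivAt.congr_deriv (hasDerivAt_U2 h) ?_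
    rw [Xv, h2]; ring
  · refine HasDerivAt.congr_deriv (hasDerivAt_U3 h) ?_
    rw [Xv, h3]
  · refine HasDerivAt.congr_deriv (hasDerivAt_V1 h) ?_
    rw [Xv, h4]
  · refine HasDerivAt.congr_deriv (hasDerivAt_V2 h) ?_
    rw [Xv, h5]; ring
  · refine HasDerivAt.congr_deriv (hasDerivAt_V3 h) ?_
    rw [Xv, h6]; ring

theorem qv_smul {c : ℂ} (hc : ‖c‖ = 1) (z : E) : qv (c • z) = qv z := by
  simp only [qv, U1, U2, U3, V1, V2, V3, pl_smul hc]

theorem qv_G_pi (z : E) : qv (G Real.pi z) = qv z := by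
  simp [qv, U1, U2, U3, V1, V2, V3, G_pi, pl]

end Crest.Agent.Quadric
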