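import Crest.Agent.Quadric.Algebra

/-!
Critical points of the reduced Hamiltonian on `S² × S²`.
-/

set_option autoImplicit false

open scoped ContDiff Topology
open Crest.GeometryTopology.Quadric

noncomputable section

namespace Crest.Agent.Quadric

/-- admissible parameters of the three critical points -/
def Crit (u1 u2 : ℝ) : Prop := (u1 = 1 ∧ u2 = 0) ∨ (u1 = -1 / 2 ∧ u2 ^ 2 = 3 / 4)

theorem crit_of_W {u1 u2 u3 v1 v2 v3 : ℝ} (hu : u1 ^ 2 + u2 ^ 2 + u3 ^ 2 = 1)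
    (hv : v1 ^ 2 + v2 ^ 2 + v3 ^ 2 = 1) (hW : Wv ![u1, u2, u3, v1, v2, v3] = 0) :
    u3 = 0 ∧ v3 = 0 ∧ v1 = u1 ∧ v2 = u2 ∧ Crit u1 u2 := by
  have h0 := congrFun hW 0
  have h1 := congrFun hW 1
  have h2 := congrFun hW 2
  have h3 := congrFun hW 3
  have h4 := congrFun hW 4
  have h5 := congrFun hW 5
  simp only [Wv, Matrix.cons_val, Matrix.cons_val_zero, Matrix.cons_val_one, Pi.zero_apply]
    at h0 h1 h2 h3 h4 h5
  have e1 : v1 = u1 := by linarith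
  have e2 : u3 = 0 := by linarith
  have e3 : v3 = 0 := by linarith
  subst e1 e2 e3
  have e4 : (v2 - u2) * (v2 + u2) = 0 := by linarith
  rcases mul_eq_zero.mp e4 with e | e
  · have e5 : v2 = u2 := by linarith
    subst e5
    refine ⟨rfl, rfl, rfl, rfl, ?_⟩
    have e6 : (v1 - 1) * (2 * v1 + 1) = 0 := by linarith
    rcases mul_eq_zero.mp e6 with e7 | e7
    · have e8 : v1 = 1 := by linarith
      subst e8
      left
      exact ⟨rfl, by nlinarith⟩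
    · have e8 : v1 = -1 / 2 := by linarith
      subst e8
      right
      exact ⟨rfl, by linarith⟩
  · have e5 : v2 = -u2 := by linarith
    subst e5
    have e8 : v1 = 1 := by linarith
    subst e8
    have e9 : u2 = 0 := by nlinarith
    subst e9
    exact ⟨rfl, rfl, rfl, by simp, Or.inl ⟨rfl, rfl⟩⟩

/-- the cone points over the critical points -/
def zeta (u1 u2 : ℝ) : E :=
  ![⟨1 / 2, 1 / 2⟩, ⟨-u1 / 2, u1 / 2⟩, ⟨-u2 / 2, u2 / 2⟩, 0, 0]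

theorem Crit.sq {u1 u2 : ℝ} (h : Crit u1 u2) : u1 ^ 2 + u2 ^ 2 = 1 := by
  rcases h with ⟨rfl, rfl⟩ | ⟨rfl, h⟩
  · norm_num
  · linarith

theorem zeta_mem {u1 u2 : ℝ} (h : u1 ^ 2 + u2 ^ 2 = 1) : zeta u1 u2 ∈ unitCone := by
  refine ⟨?_, ?_⟩
  · rw [herm_eq]
    apply Complex.ext <;> simp [zeta]
    · linarith
    · ring
  · rw [Fin.sum_univ_five]
    apply Complex.ext <;> simp [zeta, sq] <;> linarith

theorem Xv_zeta {u1 u2 : ℝ} (h : Crit u1 u2) :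
    Xv (zeta u1 u2) = (-(4 * u2 : ℝ) * Complex.I) • zeta u1 u2 := by
  have e1 : U1 (zeta u1 u2) = u1 := by simp [U1, pl, zeta]; ring
  have e2 : U2 (zeta u1 u2) = u2 := by simp [U2, pl, zeta]; ring
  have e3 : U3 (zeta u1 u2) = 0 := by simp [U3, pl, zeta]; ring
  have e4 : V1 (zeta u1 u2) = u1 := by simp [V1, pl, zeta]; ring
  have e5 : V2 (zeta u1 u2) = u2 := by simp [V2, pl, zeta]; ring
  have e6 : V3 (zeta u1 u2) = 0 := by simp [V3, pl, zeta]; ring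
  rw [Xv, e1, e2, e3, e4, e5, e6]
  funext j
  rcases h with ⟨rfl, rfl⟩ | ⟨rfl, h⟩
  · fin_cases j <;> simp [skew, zeta]
  · fin_cases j <;> apply Complex.ext <;> simp [skew, zeta] <;> linarith

theorem eq_smul_zeta {z : E} (hz : z ∈ unitCone) (h4 : z 4 = 0) (hW : Wv (qv z) = 0) :
    ∃ u1 u2 : ℝ, Crit u1 u2 ∧ ∃ c : ℂ, z = c • zeta u1 u2 := by
  obtain ⟨h1, h2⟩ := hz
  rw [herm_eq] at h1
  rw [Fin.sum_univ_five] at h2
  have h1r := congrArg Complex.re h1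
  have h2r := congrArg Complex.re h2
  have h2i := congrArg Complex.im h2
  simp [h4, sq] at h1r h2r h2i
  set x0 := (z 0).re with hx0
  set x1 := (z 1).re with hx1
  set x2 := (z 2).re with hx2
  set x3 := (z 3).re with hx3
  set y0 := (z 0).im with hy0
  set y1 := (z 1).im with hy1
  set y2 := (z 2).im with hy2
  set y3 := (z 3).im with hy3
  have hx : x0 * x0 + x1 * x1 + x2 * x2 + x3 * x3 = 1 / 2 := by linarith
  have hy : y0 * y0 + y1 * y1 + y2 * y2 + y3 * y3 = 1 / 2 := by linarith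
  have hxy : x0 * y0 + x1 * y1 + x2 * y2 + x3 * y3 = 0 := by linarith
  have hU : U1 z ^ 2 + U2 z ^ 2 + U3 z ^ 2 = 1 := by
    simp only [U1, U2, U3, pl, ← hx0, ← hx1, ← hx2, ← hx3, ← hy0, ← hy1, ← hy2, ← hy3]
    linear_combination 4 * (y0 * y0 + y1 * y1 + y2 * y2 + y3 * y3) * hx + 2 * hy
      - 4 * (x0 * y0 + x1 * y1 + x2 * y2 + x3 * y3) * hxy
  have hV : V1 z ^ 2 + V2 z ^ 2 + V3 z ^ 2 = 1 := by
    simp only [V1, V2, V3, pl, ← hx0, ← hx1, ← hx2, ← hx3, ← hy0, ← hy1, ← hy2, ← hy3]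
    linear_combination 4 * (y0 * y0 + y1 * y1 + y2 * y2 + y3 * y3) * hx + 2 * hy
      - 4 * (x0 * y0 + x1 * y1 + x2 * y2 + x3 * y3) * hxy
  obtain ⟨e1, e2, e3, e4, e5⟩ := crit_of_W hU hV hW
  refine ⟨U1 z, U2 z, e5, z 0 * ⟨1, -1⟩, ?_⟩
  simp only [U1, U2, U3, V1, V2, V3, pl, ← hx0, ← hx1, ← hx2, ← hx3, ← hy0, ← hy1, ← hy2,
    ← hy3] at e1 e2 e3 e4
  have p23 : x2 * y3 - y2 * x3 = 0 := by linarith
  have p13 : x1 * y3 - y1 * x3 = 0 := by linarith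
  have p12 : x1 * y2 - y1 * x2 = 0 := by linarith
  have p03 : x0 * y3 - y0 * x3 = 0 := by linarith
  funext j
  fin_cases j <;> apply Complex.ext <;>
    simp [zeta, U1, U2, pl, h4, ← hx0, ← hx1, ← hx2, ← hx3, ← hy0, ← hy1, ← hy2, ← hy3]
  · ring
  · ring
  · linear_combination (-2 * x1) * hy + (2 * y1) * hxy + (2 * y2) * p12 + (2 * y3) * p13
      + (2 * y0) * p23
  · linear_combination (-2 * y1) * hx + (2 * x1) * hxy - (2 * x2) * p12 - (2 * x3) * p13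
      - (2 * x0) * p23
  · linear_combination (-2 * x2) * hy + (2 * y2) * hxy - (2 * y1) * p12 + (2 * y3) * p23
      - (2 * y0) * p13
  · linear_combination (-2 * y2) * hx + (2 * x2) * hxy + (2 * x1) * p12 - (2 * x3) * p23
      + (2 * x0) * p13
  · linear_combination (-2 * x3) * hy + (2 * y3) * hxy - (2 * y0) * p03 - (2 * y1) * p13
      - (2 * y2) * p23
  · linear_combination (-2 * y3) * hx + (2 * x3) * hxy + (2 * x0) * p03 + (2 * x1) * p13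
      + (2 * x2) * p23

/-- the degenerate direction -/
def wdeg : E := ![0, 0, 0, ⟨1, 1⟩, 0]

theorem Xv_line (s : ℝ) : Xv (zeta 1 0 + s • wdeg) = s ^ 2 • ![0, 0, (⟨-4, -4⟩ : ℂ), 0, 0] := by
  have e1 : U1 (zeta 1 0 + s • wdeg) = 1 := by simp [U1, pl, zeta, wdeg]; ring
  have e2 : U2 (zeta 1 0 + s • wdeg) = 2 * s := by simp [U2, pl, zeta, wdeg]; ring
  have e3 : U3 (zeta 1 0 + s • wdeg) = 0 := by simp [U3, pl, zeta, wdeg]
  have e4 : V1 (zeta 1 0 + s • wdeg) = 1 := by simp [V1, pl, zeta, wdeg]; ring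
  have e5 : V2 (zeta 1 0 + s • wdeg) = -(2 * s) := by simp [V2, pl, zeta, wdeg]; ring
  have e6 : V3 (zeta 1 0 + s • wdeg) = 0 := by simp [V3, pl, zeta, wdeg]
  rw [Xv, e1, e2, e3, e4, e5, e6]
  funext j
  fin_cases j <;> apply Complex.ext <;> simp [skew, zeta, wdeg, sq] <;> ring

theorem wdeg_mem : wdeg ∈ coneTangent (zeta 1 0) := by
  refine ⟨?_, ?_⟩
  · simp [herm_eq, zeta, wdeg]
  · simp [Fin.sum_univ_five, zeta, wdeg]

theorem not_four_ne {z : E} (hz : z ∈ unitCone) (h0 : ‖z 0‖ ≤ 1 / 4) (h1 : ‖z 1‖ ≤ 1 / 4)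
    (h2 : ‖z 2‖ ≤ 1 / 4) (h3 : ‖z 3‖ ≤ 1 / 4) : False := by
  have hn := cone_norm hz
  have hs := hz.2
  rw [Fin.sum_univ_five] at hs
  have e : z 4 ^ 2 = -(z 0 ^ 2 + z 1 ^ 2 + z 2 ^ 2 + z 3 ^ 2) := by linear_combination hs
  have e' : ‖z 4‖ ^ 2 ≤ ‖z 0‖ ^ 2 + ‖z 1‖ ^ 2 + ‖z 2‖ ^ 2 + ‖z 3‖ ^ 2 := by
    rw [← norm_pow, e, norm_neg]
    simp only [← norm_pow]
    exact (norm_add_le _ _).trans (add_le_add ((norm_add_le _ _).trans (add_le_add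
      (norm_add_le _ _) le_rfl)) le_rfl)
  have a0 : ‖z 0‖ ^ 2 ≤ (1 / 4) ^ 2 := by gcongr
  have a1 : ‖z 1‖ ^ 2 ≤ (1 / 4) ^ 2 := by gcongr
  have a2 : ‖z 2‖ ^ 2 ≤ (1 / 4) ^ 2 := by gcongr
  have a3 : ‖z 3‖ ^ 2 ≤ (1 / 4) ^ 2 := by gcongr
  linarith

end Crest.Agent.Quadric
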