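import Crest.Agent.Quadric.Critical
import Crest.Agent.SmoothFlow.Flow
import Crest.Agent.SmoothFlow.ShortTime

/-!
The short-time flow of the Hamiltonian vector field and its properties.
-/

set_option autoImplicit false

open scoped ContDiff Topology NNReal
open Crest.GeometryTopology.Quadric Set Crest.Agent.SmoothFlow

noncomputable section

namespace Crest.Agent.Quadric

/-- properties of the flow that are used later -/
structure FlowProps (ε : ℝ) (ψ : ℝ × E → E) : Prop where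
  pos : 0 < ε
  smooth : ∀ p : ℝ × E, |p.1| < 2 → ContDiffAt ℝ ∞ ψ p
  init : ∀ x, ψ (0, x) = x
  mem : ∀ z ∈ unitCone, ∀ t, |t| < 2 → ψ (t, z) ∈ unitCone
  four : ∀ z ∈ unitCone, ψ (1, z) 4 = z 4
  deriv : ∀ z ∈ unitCone, ∀ t, |t| < 2 → HasDerivAt (fun s => ψ (s, z)) (ε • Xv (ψ (t, z))) t
  equi : ∀ z ∈ unitCone, ∀ c : ℂ, ‖c‖ = 1 → ∀ t, |t| < 2 → ψ (t, c • z) = c • ψ (t, z)
  eigen : ∀ z ∈ unitCone, ∀ μ : ℝ, Xv z = ((μ : ℂ) * Complex.I) • z → ∃ c : ℂ, ψ (1, z) = c • z
  disp : ∀ y, ‖ψ (1, y) - y‖ ≤ 2 * (ε * ‖Xv y‖)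
  small : ∀ z ∈ unitCone, ‖ψ (1, z) - z‖ ≤ 1 / 2
  per : ∀ z ∈ unitCone, qv (ψ (1, z)) = qv z → Wv (qv z) = 0

theorem exists_flow : ∃ (ε : ℝ) (ψ : ℝ × E → E), FlowProps ε ψ := by
  let χ : ContDiffBump (0 : E) := ⟨2, 3, by norm_num, by norm_num⟩
  have hχ : ∀ z ∈ unitCone, χ z = 1 := fun z hz =>
    χ.one_of_mem_closedBall (by
      rw [mem_closedBall_zero_iff]; exact (norm_le_one hz).trans (by norm_num [χ]))
  let Y0 : E → E := fun z => χ z • Xv z
  have hY0 : ContDiff ℝ ∞ Y0 := χ.contDiff.smul contDiff_Xv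
  have hY0c : HasCompactSupport Y0 := χ.hasCompactSupport.smul_right
  obtain ⟨K, hK⟩ := hY0.lipschitzWith_of_hasCompactSupport hY0c (by simp)
  let S : Set (Fin 6 → ℝ) := qv '' Metric.closedBall 0 1
  have hS : IsCompact S := (isCompact_closedBall 0 1).image continuous_qv
  obtain ⟨KW, hKW⟩ := (contDiff_Wv.locallyLipschitz.locallyLipschitzOn
    (s := S)).exists_lipschitzOnWith_of_compact hS
  let ε : ℝ≥0 := 1 / (4 * (K + KW + 1))
  have hε : (0 : ℝ) < ε := by simp only [ε]; push_cast; positivity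
  have hεK : (ε : ℝ) * K ≤ 1 / 4 := by
    simp only [ε]; push_cast
    rw [div_mul_eq_mul_div, one_mul, div_le_iff₀ (by positivity)]
    nlinarith [K.2, KW.2]
  have hεW : (ε : ℝ) * KW ≤ 1 / 4 := by
    simp only [ε]; push_cast
    rw [div_mul_eq_mul_div, one_mul, div_le_iff₀ (by positivity)]
    nlinarith [K.2, KW.2]
  let Y : E → E := fun z => (ε : ℝ) • Y0 z
  have hY : ContDiff ℝ ∞ Y := hY0.const_smul (ε : ℝ)
  have hYL : LipschitzWith (ε * K) Y := by
    have := (lipschitzWith_smul (β := E) (ε : ℝ)).comp hK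
    rw [NNReal.nnnorm_eq] at this
    exact this
  have hYeq : ∀ z, Y z = ((ε : ℝ) * χ z) • Xv z := fun z => by simp only [Y, Y0, smul_smul]
  have hYcone : ∀ z ∈ unitCone, Y z = (ε : ℝ) • Xv z := fun z hz => by
    rw [hYeq, hχ z hz, mul_one]
  obtain ⟨ψ, hsm, hinit, hder⟩ := exists_smooth_flow Y hY hYL 2 (by push_cast; linarith)
  have h01 : ∀ t ∈ Icc (0 : ℝ) 1, |t| < 2 := fun t ht => by
    rw [abs_lt]; constructor <;> linarith [ht.1, ht.2]
  have hmem : ∀ z ∈ unitCone, ∀ t, |t| < 2 → ψ (t, z) ∈ unitCone := by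
    intro z hz t ht
    refine ⟨?_, ?_⟩
    · have := const_of_hasDerivAt_zero (f := fun s => herm (ψ (s, z)) (ψ (s, z))) (T := 2)
        (fun s hs => by
          have := hasDerivAt_herm (hder z s hs)
          rwa [hYeq, herm_Xv] at this) ht
      simp only [hinit] at this
      rw [this, hz.1]
    · have := const_of_hasDerivAt_zero (f := fun s => ∑ j, ψ (s, z) j ^ 2) (T := 2)
        (fun s hs => by
          have := hasDerivAt_sq (hder z s hs)
          rwa [hYeq, sq_Xv] at this) ht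
      simp only [hinit] at this
      rw [this, hz.2]
  have hder' : ∀ z ∈ unitCone, ∀ t, |t| < 2 →
      HasDerivAt (fun s => ψ (s, z)) ((ε : ℝ) • Xv (ψ (t, z))) t := fun z hz t ht => by
    rw [← hYcone _ (hmem z hz t ht)]; exact hder z t ht
  have huniq : ∀ (x : E) (g : ℝ → E), g 0 = x → (∀ t, |t| < 2 → HasDerivAt g (Y (g t)) t) →
      ∀ t, |t| < 2 → ψ (t, x) = g t := by
    intro x g hg0 hg t ht
    exact ODE_solution_unique_of_mem_Ioo (v := fun _ => Y) (s := fun _ => univ) (K := ε * K)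
      (f := fun s => ψ (s, x)) (g := g) (a := -2) (b := 2) (t₀ := 0)
      (fun _ _ => hYL.lipschitzOnWith) (by constructor <;> norm_num)
      (fun s hs => ⟨hder x s (abs_lt.mpr hs), trivial⟩)
      (fun s hs => ⟨hg s (abs_lt.mpr hs), trivial⟩) (by simp [hinit, hg0]) (abs_lt.mp ht)
  have hdisp : ∀ y, ‖ψ (1, y) - y‖ ≤ 2 * ‖Y y‖ := fun y => by
    have := displacement_le hYL (by push_cast; linarith) (q := fun s => ψ (s, y))
      (fun t ht => hder y t (h01 t ht))
    simpa only [hinit] using this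
  refine ⟨ε, ψ, hε, hsm, hinit, hmem, ?_, hder', ?_, ?_, ?_, ?_, ?_⟩
  · intro z hz
    have := const_of_hasDerivAt_zero (f := fun s => ψ (s, z) 4) (T := 2)
      (fun s hs => by
        have := hasDerivAt_pi.1 (hder' z hz s hs) 4
        simpa [Xv_four] using this) (t := 1) (by norm_num)
    simpa only [hinit] using this
  · intro z hz c hc t ht
    refine huniq (c • z) (fun s => c • ψ (s, z)) (by simp [hinit]) (fun s hs => ?_) t ht
    rw [hYcone _ (smul_mem hc (hmem z hz s hs)), Xv_smul hc, smul_comm]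
    exact (hder' z hz s hs).const_smul c
  · intro z hz μ hμ
    let e : ℝ → ℂ := fun s => Complex.exp (((ε * μ * s : ℝ) : ℂ) * Complex.I)
    have he : ∀ s, ‖e s‖ = 1 := fun s => Complex.norm_exp_ofReal_mul_I _
    refine ⟨e 1, huniq z (fun s => e s • z) (by simp [e]) (fun s _ => ?_) 1 (by norm_num)⟩
    rw [hYcone _ (smul_mem (he s) hz), Xv_smul (he s), hμ]
    have h1 : HasDerivAt (fun s : ℝ => (ε : ℝ) * μ * s) (ε * μ) s := by
      simpa using (hasDerivAt_id s).const_mul ((ε : ℝ) * μ)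
    have h2 : HasDerivAt e (e s * (((ε * μ : ℝ) : ℂ) * Complex.I)) s :=
      (h1.ofReal_comp.mul_const Complex.I).cexp
    refine HasDerivAt.congr_deriv (h2.smul_const z) ?_
    rw [smul_smul, ← Complex.coe_smul, smul_smul]
    congr 1
    push_cast; ring
  · intro y
    refine (hdisp y).trans ?_
    rw [hYeq, norm_smul, Real.norm_eq_abs, abs_mul, abs_of_pos hε, abs_of_nonneg χ.nonneg]
    have h1 : (ε : ℝ) * χ y ≤ ε := mul_le_of_le_one_right hε.le χ.le_one
    gcongr
  · intro z hz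
    refine (hdisp z).trans ?_
    have h1 := hYL.dist_le_mul z 0
    have h2 : Y 0 = 0 := by rw [hYeq, Xv_zero, smul_zero]
    rw [h2, dist_zero_right, dist_zero_right] at h1
    push_cast at h1
    have h3 := norm_le_one hz
    have h4 : (ε : ℝ) * K * ‖z‖ ≤ 1 / 4 * 1 := by gcongr
    linarith
  · intro z hz hq
    have hL : LipschitzOnWith (ε * KW) (fun q => (ε : ℝ) • Wv q) S := by
      have := (lipschitzWith_smul (β := Fin 6 → ℝ) (ε : ℝ)).comp_lipschitzOnWith hKW
      rw [NNReal.nnnorm_eq] at this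
      exact this
    have := zero_of_periodic hL (by push_cast; linarith) (q := fun s => qv (ψ (s, z)))
      (fun t ht => hasDerivAt_qv (γ := fun s => ψ (s, z)) (hder' z hz t (h01 t ht)))
      (fun t ht => ⟨_, mem_closedBall_zero_iff.mpr (norm_le_one (hmem z hz t (h01 t ht))), rfl⟩)
      (by simp only [hinit, hq])
    simp only [hinit] at this
    exact (smul_eq_zero.mp this).resolve_left hε.ne'

end Crest.Agent.Quadric
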